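import Vale.Agent.Lib.P034.Reduce

namespace Vale.Agent.Results.P034.DisjointSupport

open Finset

/-- Talagrand's fractional-versus-integral question for fractional covers with pairwise disjoint
support: if `g ≥ 0` is a fractional cover of a family `F` of subsets of a finite set `X`
(every `H ∈ F` has `∑_{S ⊆ H} g S ≥ 1`) with cost `∑_S g S * p^|S| ≤ 1/2`, and any two distinct
sets carrying nonzero weight are disjoint, then `F` has an integral cover `G` (every `H ∈ F`
contains a member of `G`) whose cost at `p / 10^6` is at most `1/2`. The sizes of the sets in the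
support and the weights are arbitrary; the constant `10^6` is absolute. -/
theorem result (X : Type) [Fintype X] [DecidableEq X] (F : Finset (Finset X))
    (p : ℝ) (hp0 : 0 ≤ p) (g : Finset X → ℝ) (hg0 : ∀ S, 0 ≤ g S)
    (hcov : ∀ H ∈ F, 1 ≤ ∑ S ∈ H.powerset, g S)
    (hcost : ∑ S : Finset X, g S * p ^ S.card ≤ 1/2)
    (hdisj : ∀ S T, g S ≠ 0 → g T ≠ 0 → S ≠ T → Disjoint S T) :
    ∃ G : Finset (Finset X), (∀ H ∈ F, ∃ S ∈ G, S ⊆ H) ∧
      ∑ S ∈ G, (p / 1000000) ^ S.card ≤ 1/2 :=
  Vale.Agent.Lib.P034.disjoint_support F p hp0 g hg0 hcov hcost hdisj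

end Vale.Agent.Results.P034.DisjointSupport
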