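import Vale.Agent.Lib.P034.H6.MatCover

namespace Vale.Agent.Results.P034.H6_MatroidBases

open Vale.Agent.Lib.P034.H6

/-- **Fractional versus integral covers for the families generated by the bases of a matroid.**

Let `M` be any matroid on a finite type `X` and let `ℱ_M` be the increasing family of all
`H ⊆ X` that contain a base of `M` (the spanning sets of `M`).  Let `g ≥ 0` be a fractional
cover of `ℱ_M` (every `H ∈ ℱ_M` has `∑_{S ⊆ H} g S ≥ 1`) whose cost `∑_S g S p^{|S|}` at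
`p ≥ 0` is at most `1/2`.  Then `ℱ_M` has an integral cover `G` (every `H ∈ ℱ_M` contains a
member of `G`) with `∑_{S ∈ G} (p/6)^{|S|} ≤ 1/2`.  The constant `6` is absolute and the
fractional cover is arbitrary. -/
theorem result (X : Type) [Fintype X] [DecidableEq X] (M : Matroid X)
    (p : ℝ) (hp0 : 0 ≤ p) (g : Finset X → ℝ) (hg0 : ∀ S, 0 ≤ g S)
    (hcov : ∀ H : Finset X, (∃ B : Set X, M.IsBase B ∧ B ⊆ (H : Set X)) →
      1 ≤ ∑ S ∈ H.powerset, g S)
    (hcost : ∑ S : Finset X, g S * p ^ S.card ≤ 1 / 2) :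
    ∃ G : Finset (Finset X),
      (∀ H : Finset X, (∃ B : Set X, M.IsBase B ∧ B ⊆ (H : Set X)) → ∃ S ∈ G, S ⊆ H) ∧
      ∑ S ∈ G, (p / 6) ^ S.card ≤ 1 / 2 := by
  obtain ⟨G, hG, hcostG⟩ := matroid_cover M p hp0 g hg0
    (fun B hB => hcov B ⟨(B : Set X), hB, subset_rfl⟩) hcost
  refine ⟨G, ?_, hcostG⟩
  rintro H ⟨B, hB, hBH⟩
  set B' : Finset X := (Set.toFinite B).toFinset with hB'
  have hc : (B' : Set X) = B := Set.Finite.coe_toFinset _
  obtain ⟨S, hS, hSB⟩ := hG B' (by rw [hc]; exact hB)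
  refine ⟨S, hS, ?_⟩
  intro x hx
  have h1 : x ∈ (B' : Set X) := Finset.mem_coe.2 (hSB hx)
  rw [hc] at h1
  exact Finset.mem_coe.1 (hBH h1)

end Vale.Agent.Results.P034.H6_MatroidBases
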