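import Vale.Agent.Lib.P034.H6.TransferSparse

namespace Vale.Agent.Results.P034.H6_SparseSubgraph

open Vale.Agent.Lib.P064 Vale.Agent.Lib.P034.H6

open scoped Classical

/-- **Fractional versus integral covers for all subgraph-containment families, sparse regime.**

Fix any graph `H` on the vertex set `Fin n`.  The ground set `X` is the edge set of the complete
graph on `Fin n`, its subsets are the graphs `S` on `Fin n` (with `|S|` the number of edges), and
`ℱ_H` is the increasing family of all graphs `T` containing a copy of `H`.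

Let `g ≥ 0` be a fractional cover of `ℱ_H` (every `T ∈ ℱ_H` has `∑_{S ⊆ T} g S ≥ 1`) whose cost
`∑_S g S p^{|S|}` at `p ≥ 0` is at most `1/2`.  Then `ℱ_H` has an integral cover `G` (every
`T ∈ ℱ_H` contains a member of `G`) with `∑_{S ∈ G} (p/K)^{|S|} ≤ 1/2`, where
`K = 228261888 * max(1, n p)`.  In particular `K` is an absolute constant as long as
`p = O(1/n)`. -/
theorem result :
    ∀ (n : ℕ) (H : SimpleGraph (Fin n)) (g : SimpleGraph (Fin n) → ℝ) (p : ℝ),
      0 ≤ p → (∀ S, 0 ≤ g S) →
      (∀ T : SimpleGraph (Fin n),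
        (∃ H' : SimpleGraph (Fin n), H' ≤ T ∧ Nonempty (H' ≃g H)) →
        (1 : ℝ) ≤ ∑ S ∈ (Finset.univ : Finset (SimpleGraph (Fin n))).filter (fun S => S ≤ T),
          g S) →
      ∑ S : SimpleGraph (Fin n), g S * p ^ S.edgeSet.ncard ≤ 1 / 2 →
      ∃ G : Finset (SimpleGraph (Fin n)),
        (∀ T : SimpleGraph (Fin n),
          (∃ H' : SimpleGraph (Fin n), H' ≤ T ∧ Nonempty (H' ≃g H)) → ∃ S ∈ G, S ≤ T) ∧
        ∑ S ∈ G, (p / (228261888 * max 1 ((n : ℝ) * p))) ^ S.edgeSet.ncard ≤ 1 / 2 := by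
  intro n H g p hp hg hcover hcost
  exact transfer_sparse H g p hp hg hcover hcost

end Vale.Agent.Results.P034.H6_SparseSubgraph
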