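import Vale.Agent.Lib.P034.H6.Transfer

namespace Vale.Agent.Results.P034.H6_SubgraphFamilies

open Vale.Agent.Lib.P064 Vale.Agent.Lib.P034.H6

open scoped Classical

/-- **Fractional versus integral covers for subgraph-containment families.**

Fix a graph `H` on the vertex set `Fin n`.  The ground set `X` is the edge set of the complete
graph on `Fin n`, its subsets are the graphs `S` on `Fin n` (with `|S|` the number of edges), and
`ℱ_H` is the increasing family of all graphs `T` containing a copy of `H`.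

Let `g ≥ 0` be a fractional cover of `ℱ_H` (every `T ∈ ℱ_H` has `∑_{S ⊆ T} g S ≥ 1`) whose cost
`∑_S g S p^{|S|}` at `p ≥ 0` is at most `1/2`.  Then `ℱ_H` has an integral cover `G` (every
`T ∈ ℱ_H` contains a member of `G`) with `∑_{S ∈ G} (p/K)^{|S|} ≤ 1/2`, where
* `K = 144 Δ` if all degrees of `H` are at most `Δ`;
* `K = 1296` if `H` is a star forest (every edge of `H` has an endpoint of degree one);
* `K = 144` if `H` is a forest having a vertex of degree at least `max(1, log n)`. -/
theorem result :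
    ∀ (n : ℕ) (H : SimpleGraph (Fin n)) (g : SimpleGraph (Fin n) → ℝ) (p : ℝ),
      0 ≤ p → (∀ S, 0 ≤ g S) →
      (∀ T : SimpleGraph (Fin n),
        (∃ H' : SimpleGraph (Fin n), H' ≤ T ∧ Nonempty (H' ≃g H)) →
        (1 : ℝ) ≤ ∑ S ∈ (Finset.univ : Finset (SimpleGraph (Fin n))).filter (fun S => S ≤ T),
          g S) →
      ∑ S : SimpleGraph (Fin n), g S * p ^ S.edgeSet.ncard ≤ 1 / 2 →
      (∀ Δ : ℕ, (∀ v : Fin n, (H.neighborSet v).ncard ≤ Δ) →
        ∃ G : Finset (SimpleGraph (Fin n)),
          (∀ T : SimpleGraph (Fin n),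
            (∃ H' : SimpleGraph (Fin n), H' ≤ T ∧ Nonempty (H' ≃g H)) → ∃ S ∈ G, S ≤ T) ∧
          ∑ S ∈ G, (p / (144 * Δ)) ^ S.edgeSet.ncard ≤ 1 / 2) ∧
      ((∀ a b : Fin n, H.Adj a b → (∀ c, H.Adj a c → c = b) ∨ (∀ c, H.Adj b c → c = a)) →
        ∃ G : Finset (SimpleGraph (Fin n)),
          (∀ T : SimpleGraph (Fin n),
            (∃ H' : SimpleGraph (Fin n), H' ≤ T ∧ Nonempty (H' ≃g H)) → ∃ S ∈ G, S ≤ T) ∧
          ∑ S ∈ G, (p / 1296) ^ S.edgeSet.ncard ≤ 1 / 2) ∧
      (H.IsAcyclic →
        (∃ v : Fin n, max 1 (Real.log n) ≤ ((H.neighborSet v).ncard : ℝ)) →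
        ∃ G : Finset (SimpleGraph (Fin n)),
          (∀ T : SimpleGraph (Fin n),
            (∃ H' : SimpleGraph (Fin n), H' ≤ T ∧ Nonempty (H' ≃g H)) → ∃ S ∈ G, S ≤ T) ∧
          ∑ S ∈ G, (p / 144) ^ S.edgeSet.ncard ≤ 1 / 2) := by
  intro n H g p hp hg hcover hcost
  refine ⟨?_, ?_, ?_⟩
  · intro Δ hdeg
    have hdegF : ∀ x, (H.neighborFinset x).card ≤ Δ := by
      intro x
      have h := hdeg x
      rw [Set.ncard_eq_toFinset_card'] at h
      exact h
    -- `H` has an edge, so `Δ ≥ 1`
    obtain ⟨a, b, hab⟩ := exists_adj_of_cover H g p hp hg hcover hcost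
    have hΔ1 : 1 ≤ Δ := by
      refine le_trans ?_ (hdegF a)
      exact Finset.card_pos.mpr ⟨b, (H.mem_neighborFinset a b).mpr hab⟩
    have hΔpos : (0 : ℝ) < 72 * Δ := by
      have : (1 : ℝ) ≤ (Δ : ℝ) := by exact_mod_cast hΔ1
      linarith
    have h := transfer H (72 * Δ) hΔpos (by
      intro q hq0 hyp F hF
      rw [ncard_edgeSet]
      exact comparison_deg H Δ hdegF q hq0 hyp F hF) g p hp hg hcover hcost
    have e : (2 : ℝ) * (72 * Δ) = 144 * Δ := by ring
    rw [e] at h
    exact h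
  · intro hstar
    have h := transfer H 648 (by norm_num) (by
      intro q hq0 hyp F hF
      rw [ncard_edgeSet]
      refine comparison_starForest H q hq0 hyp F ?_
      intro a b hab
      rcases hstar a b (hF hab) with h1 | h1
      · exact Or.inl (fun c hc => h1 c (hF hc))
      · exact Or.inr (fun c hc => h1 c (hF hc))) g p hp hg hcover hcost
    have e : (2 : ℝ) * 648 = 1296 := by norm_num
    rw [e] at h
    exact h
  · intro hacyc hv
    have hmaxdeg : max 1 (Real.log n) ≤ (H.maxDegree : ℝ) := by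
      obtain ⟨v, hv⟩ := hv
      refine le_trans hv ?_
      have h1 : (H.neighborSet v).ncard = H.degree v := by
        rw [Set.ncard_eq_toFinset_card']
        rfl
      rw [h1]
      exact_mod_cast H.degree_le_maxDegree v
    have h := transfer H 72 (by norm_num) (by
      intro q hq0 hyp F hF
      rw [ncard_edgeSet]
      exact comparison_forest_dense H q hq0 hyp F (hacyc.anti hF) hmaxdeg) g p hp hg hcover hcost
    have e : (2 : ℝ) * 72 = 144 := by norm_num
    rw [e] at h
    exact h

end Vale.Agent.Results.P034.H6_SubgraphFamilies
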